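import Vale.Agent.P259.Main

namespace Vale.Agent.Results.P259.A_full

open CategoryTheory Vale.Agent.P259 Vale.Agent.P259.GlobExt

theorem result (E : GlobExt) (hE : E.IsCoherator) :
    Nonempty (Units E) ∧ ∃ (D : E.C ⥤ CG) (hD : IsDiscFunctor E D), ∀ k : Units E,
      WHE ≤ (W k).inverseImage (homGpd D hD.pres) ∧
      ∃ F : WHE.Localization ⥤ (W k).Localization,
        WHE.Q ⋙ F = homGpd D hD.pres ⋙ (W k).Q ∧ F.IsEquivalence :=
  main E hE

end Vale.Agent.Results.P259.A_full
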